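import Vale.Agent.P030.Main

namespace Vale.Agent.Results.P030.A_irrational

/-- Catalan's constant `∑ (-1)^j / (2j+1)^2` is irrational. -/
theorem result : Irrational (∑' j : ℕ, (-1 : ℝ) ^ j / (2 * (j : ℝ) + 1) ^ 2) :=
  Vale.Agent.P030.catG_irrational

end Vale.Agent.Results.P030.A_irrational
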